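import Crest.Agent.S0324.Area

/-!
Row 211, F1: second conjunct of S0325 from one fixed good cover of the tetrahedron, by padding
with degenerate triangles and one triangle of exactly the missing area.
-/

set_option autoImplicit false
open MeasureTheory
open scoped ENNReal

namespace Crest.Agent.S0325

open Crest.Agent.S0324 in
/-- Area of the auxiliary triangle `0, e_y, 2a e_z`. -/
lemma pad_area_aux (a : ℝ) (ha : 0 < a) :
    (μHE[2] (convexHull ℝ ({(0 : EuclideanSpace ℝ (Fin 3)), !₂[0, 1, 0], !₂[0, 0, 2 * a]} :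
      Set (EuclideanSpace ℝ (Fin 3))))).toReal = a := by
  have hg : gramArea ((!₂[0, 1, 0] : EuclideanSpace ℝ (Fin 3)) - 0) (!₂[0, 0, 2 * a] - 0) = 2 * a := by
    rw [gramArea_eq_cross]
    simp only [sub_zero]
    have : (2 * a) ^ 2 = (2 * a) ^ 2 := rfl
    simp
    rw [Real.sqrt_sq (by positivity)]
  rw [area_triangle _ _ _ (by rw [hg]; positivity), hg, ENNReal.toReal_ofReal (by positivity)]
  ring

open Crest.Agent.S0324 in
lemma pad_area_zero :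
    (μHE[2] (convexHull ℝ ({(0 : EuclideanSpace ℝ (Fin 3)), 0, 0} :
      Set (EuclideanSpace ℝ (Fin 3))))).toReal = 0 := by
  have : ({(0 : EuclideanSpace ℝ (Fin 3)), 0, 0} : Set (EuclideanSpace ℝ (Fin 3))) = {0} := by
    simp
  rw [this, convexHull_singleton, area_singleton]
  simp

lemma pad_norm_ex : ‖(!₂[1, 0, 0] : EuclideanSpace ℝ (Fin 3))‖ = 1 := by
  rw [EuclideanSpace.norm_eq]
  simp [Fin.sum_univ_three]

lemma pad_inner_ex (b c : ℝ) :
    inner ℝ (!₂[0, b, c] : EuclideanSpace ℝ (Fin 3)) (!₂[1, 0, 0]) = 0 := by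
  rw [Crest.Agent.S0324.inner_coord]
  simp

/-- **F1**: padding a fixed good cover to exactly `2⌈2/ε²⌉` cylinders with prescribed total area. -/
theorem part2_of_cover
    (hc : ∃ (m : ℕ) (u p q r : Fin m → EuclideanSpace ℝ (Fin 3)),
      m + 1 ≤ 16000000 ∧ (∀ i, ‖u i‖ = 1) ∧
      (∀ i, inner ℝ (p i) (u i) = 0 ∧ inner ℝ (q i) (u i) = 0 ∧ inner ℝ (r i) (u i) = 0) ∧
      convexHull ℝ {!₂[1, 0, 0], !₂[-1, 0, 0], !₂[0, 1, Real.sqrt 2], !₂[0, -1, Real.sqrt 2]} ⊆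
        ⋃ i, {x : EuclideanSpace ℝ (Fin 3) | ∃ b ∈ convexHull ℝ {p i, q i, r i}, ∃ t : ℝ,
          x = b + t • u i} ∧
      ∑ i, (μHE[2] (convexHull ℝ ({p i, q i, r i} : Set (EuclideanSpace ℝ (Fin 3))))).toReal ≤
        Real.sqrt 2 * (1 / 2 - 1 / 100000000)) :
    ∀ ε : ℝ, 0 < ε → ε ≤ 1 / 2000 →
      ∃ (u p q r : Fin (2 * ⌈2 / ε ^ 2⌉₊) → EuclideanSpace ℝ (Fin 3)),
        (∀ i, ‖u i‖ = 1) ∧
        (∀ i, inner ℝ (p i) (u i) = 0 ∧ inner ℝ (q i) (u i) = 0 ∧ inner ℝ (r i) (u i) = 0) ∧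
        convexHull ℝ {!₂[1, 0, 0], !₂[-1, 0, 0], !₂[0, 1, Real.sqrt 2], !₂[0, -1, Real.sqrt 2]} ⊆
          ⋃ i, {x : EuclideanSpace ℝ (Fin 3) | ∃ b ∈ convexHull ℝ {p i, q i, r i}, ∃ t : ℝ,
            x = b + t • u i} ∧
        abs ((∑ i, (μHE[2] (convexHull ℝ ({p i, q i, r i} :
            Set (EuclideanSpace ℝ (Fin 3))))).toReal) / Real.sqrt 2 -
            (1 / 2 - 13 / 6000 * ε ^ 2)) ≤ 2 * ε ^ 4 := by
  classical
  intro ε hε hε2
  obtain ⟨m, u₀, p₀, q₀, r₀, hm, hu₀, hperp₀, hcov₀, hsum₀⟩ := hc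
  set A₀ : ℝ := ∑ i, (μHE[2] (convexHull ℝ ({p₀ i, q₀ i, r₀ i} :
    Set (EuclideanSpace ℝ (Fin 3))))).toReal with hA₀
  set T : ℝ := Real.sqrt 2 * (1 / 2 - 13 / 6000 * ε ^ 2) with hT
  have hs2 : 0 < Real.sqrt 2 := by positivity
  have hεsq : ε ^ 2 ≤ 1 / 4000000 := by nlinarith
  have hapos : 0 < T - A₀ := by
    have : Real.sqrt 2 * (1 / 2 - 1 / 100000000) < T := by
      rw [hT]
      apply mul_lt_mul_of_pos_left _ hs2
      nlinarith
    linarith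
  have hNm : m + 1 ≤ 2 * ⌈2 / ε ^ 2⌉₊ := by
    have h1 : (8000000 : ℝ) ≤ 2 / ε ^ 2 := by
      rw [le_div_iff₀ (by positivity)]
      nlinarith
    have h2 : (8000000 : ℝ) ≤ (⌈2 / ε ^ 2⌉₊ : ℝ) := h1.trans (Nat.le_ceil _)
    have h3 : 8000000 ≤ ⌈2 / ε ^ 2⌉₊ := by exact_mod_cast h2
    omega
  set U : ℕ → EuclideanSpace ℝ (Fin 3) := fun k => if h : k < m then u₀ ⟨k, h⟩ else !₂[1, 0, 0]
    with hU
  set P : ℕ → EuclideanSpace ℝ (Fin 3) := fun k => if h : k < m then p₀ ⟨k, h⟩ else 0 with hP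
  set Q : ℕ → EuclideanSpace ℝ (Fin 3) := fun k =>
    if h : k < m then q₀ ⟨k, h⟩ else if k = m then !₂[0, 1, 0] else 0 with hQ
  set Rr : ℕ → EuclideanSpace ℝ (Fin 3) := fun k =>
    if h : k < m then r₀ ⟨k, h⟩ else if k = m then !₂[0, 0, 2 * (T - A₀)] else 0 with hRr
  refine ⟨fun i => U i, fun i => P i, fun i => Q i, fun i => Rr i, ?_, ?_, ?_, ?_⟩
  · intro i
    by_cases h : (i : ℕ) < m
    · simp only [hU, dif_pos h]; exact hu₀ _
    · simp only [hU, dif_neg h]; exact pad_norm_ex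
  · intro i
    by_cases h : (i : ℕ) < m
    · simp only [hU, hP, hQ, hRr, dif_pos h]; exact hperp₀ _
    · by_cases h' : (i : ℕ) = m
      · simp only [hU, hP, hQ, hRr, dif_neg h, if_pos h']
        exact ⟨inner_zero_left _, pad_inner_ex _ _, pad_inner_ex _ _⟩
      · simp only [hU, hP, hQ, hRr, dif_neg h, if_neg h']
        exact ⟨inner_zero_left _, inner_zero_left _, inner_zero_left _⟩
  · intro X hX
    obtain ⟨i, hi⟩ := Set.mem_iUnion.mp (hcov₀ hX)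
    refine Set.mem_iUnion.mpr ⟨⟨i.val, by omega⟩, ?_⟩
    simp only [hU, hP, hQ, hRr, dif_pos i.isLt]
    exact hi
  · have hconv := Fin.sum_univ_eq_sum_range (fun k : ℕ =>
      (μHE[2] (convexHull ℝ ({P k, Q k, Rr k} : Set (EuclideanSpace ℝ (Fin 3))))).toReal)
      (2 * ⌈2 / ε ^ 2⌉₊)
    rw [hconv]
    obtain ⟨d, hd⟩ : ∃ d, 2 * ⌈2 / ε ^ 2⌉₊ = m + 1 + d := ⟨2 * ⌈2 / ε ^ 2⌉₊ - (m + 1), by omega⟩
    rw [hd, Finset.sum_range_add, Finset.sum_range_succ]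
    have h1 : ∑ k ∈ Finset.range m,
        (μHE[2] (convexHull ℝ ({P k, Q k, Rr k} : Set (EuclideanSpace ℝ (Fin 3))))).toReal = A₀ := by
      rw [Finset.sum_range, hA₀]
      apply Finset.sum_congr rfl
      intro i _
      simp only [hP, hQ, hRr, dif_pos i.isLt]
    have h2 : (μHE[2] (convexHull ℝ ({P m, Q m, Rr m} :
        Set (EuclideanSpace ℝ (Fin 3))))).toReal = T - A₀ := by
      simp only [hP, hQ, hRr, dif_neg (lt_irrefl m), if_pos rfl]
      exact pad_area_aux _ hapos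
    have h3 : ∑ k ∈ Finset.range d,
        (μHE[2] (convexHull ℝ ({P (m + 1 + k), Q (m + 1 + k), Rr (m + 1 + k)} :
          Set (EuclideanSpace ℝ (Fin 3))))).toReal = 0 := by
      apply Finset.sum_eq_zero
      intro k _
      have hk1 : ¬ (m + 1 + k < m) := by omega
      have hk2 : ¬ (m + 1 + k = m) := by omega
      simp only [hP, hQ, hRr, dif_neg hk1, if_neg hk2]
      exact pad_area_zero
    rw [h1, h2, h3]
    have hT2 : (A₀ + (T - A₀) + 0) / Real.sqrt 2 = 1 / 2 - 13 / 6000 * ε ^ 2 := by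
      rw [hT]
      field_simp
      ring
    rw [hT2, sub_self, abs_zero]
    positivity

end Crest.Agent.S0325
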