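import Crest.Agent.S0325.Quad

/-!
# The least projection area of the regular tetrahedron is `√2`
(helper1, ROW211 WP-A: first conjunct of S0325)
-/

namespace Crest.Agent.S0325

open MeasureTheory

/-- Euclidean three-space. -/
abbrev E3 : Type := EuclideanSpace ℝ (Fin 3)

/-- Orthogonal projection along the (unit) vector `v`, as a linear map. -/
noncomputable def projL (v : E3) : E3 →ₗ[ℝ] E3 where
  toFun y := y - inner ℝ y v • v
  map_add' x y := by
    simp only [inner_add_left, add_smul]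
    abel
  map_smul' c x := by
    simp only [inner_smul_left, RingHom.id_apply, smul_sub, smul_smul]
    simp

lemma projL_apply (v y : E3) : projL v y = y - inner ℝ y v • v := rfl

lemma inner_projL (v : E3) (hv : ‖v‖ = 1) (X Y : E3) :
    inner ℝ (projL v X) (projL v Y) = inner ℝ X Y - inner ℝ X v * inner ℝ Y v := by
  have hvv : inner ℝ v v = 1 := by rw [real_inner_self_eq_norm_sq, hv]; norm_num
  simp only [projL_apply, inner_sub_left, inner_sub_right, inner_smul_left, inner_smul_right,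
    hvv, real_inner_comm v Y]
  simp

lemma projL_mem_orth (v : E3) (hv : ‖v‖ = 1) (X : E3) : inner ℝ (projL v X) v = 0 := by
  simp [projL_apply, inner_sub_left, inner_smul_left, hv]

/-- A linear isometry of the plane onto `v^⊥`. -/
lemma exists_isometry (v : E3) (hv : ‖v‖ = 1) :
    ∃ ι : E2 →ₗᵢ[ℝ] E3, ∀ y : E3, inner ℝ y v = 0 → ∃ x, ι x = y := by
  have hv0 : v ≠ 0 := by
    rintro rfl
    simp at hv
  have : Fact (Module.finrank ℝ E3 = 2 + 1) := ⟨by simp⟩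
  have h2 : Module.finrank ℝ (ℝ ∙ v)ᗮ = 2 := Submodule.finrank_orthogonal_span_singleton hv0
  let b : OrthonormalBasis (Fin 2) ℝ (ℝ ∙ v)ᗮ :=
    (stdOrthonormalBasis ℝ (ℝ ∙ v)ᗮ).reindex (finCongr h2)
  refine ⟨(ℝ ∙ v)ᗮ.subtypeₗᵢ.comp b.repr.symm.toLinearIsometry, ?_⟩
  intro y hy
  have hmem : y ∈ (ℝ ∙ v)ᗮ := Submodule.mem_orthogonal_singleton_iff_inner_left.mpr hy
  exact ⟨b.repr ⟨y, hmem⟩, by simp⟩

/-- The `3 × 3` determinant `det [X, Y, v]`. -/
def det3 (X Y v : E3) : ℝ :=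
  X 0 * (Y 1 * v 2 - Y 2 * v 1) - X 1 * (Y 0 * v 2 - Y 2 * v 0) + X 2 * (Y 0 * v 1 - Y 1 * v 0)

lemma inner_E3 (x y : E3) : inner ℝ x y = x 0 * y 0 + x 1 * y 1 + x 2 * y 2 := by
  simp [PiLp.inner_apply, Fin.sum_univ_three]
  ring

lemma norm_sq_E3 (v : E3) (hv : ‖v‖ = 1) : v 0 * v 0 + v 1 * v 1 + v 2 * v 2 = 1 := by
  have h := inner_E3 v v
  rw [real_inner_self_eq_norm_sq, hv] at h
  linarith

/-- Gram determinant of two projected vectors is the squared triple product with `v`. -/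
lemma gram_projL (v : E3) (hv : ‖v‖ = 1) (X Y : E3) :
    gram (projL v X) (projL v Y) = det3 X Y v ^ 2 := by
  unfold gram
  rw [inner_projL v hv, inner_projL v hv, inner_projL v hv]
  have hv' := norm_sq_E3 v hv
  simp only [inner_E3, det3]
  linear_combination
    (-1 : ℝ) * ((X 0 * X 0 + X 1 * X 1 + X 2 * X 2) * (Y 0 * Y 0 + Y 1 * Y 1 + Y 2 * Y 2)
      - (X 0 * Y 0 + X 1 * Y 1 + X 2 * Y 2) ^ 2) * hv'

/-- Pull the projected hull of four points back to the plane by an isometry. -/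
lemma proj_hull_pullback (v : E3) (hv : ‖v‖ = 1) (A B C D : E3) :
    ∃ (ι : E2 →ₗᵢ[ℝ] E3) (a b c d : E2), ι a = projL v A ∧ ι b = projL v B ∧ ι c = projL v C ∧
      ι d = projL v D ∧
      μHE[2] ((fun y => y - inner ℝ y v • v) '' convexHull ℝ {A, B, C, D})
        = volume (convexHull ℝ {a, b, c, d}) := by
  obtain ⟨ι, hι⟩ := exists_isometry v hv
  obtain ⟨a, ha⟩ := hι _ (projL_mem_orth v hv A)
  obtain ⟨b, hb⟩ := hι _ (projL_mem_orth v hv B)
  obtain ⟨c, hc⟩ := hι _ (projL_mem_orth v hv C)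
  obtain ⟨d, hd⟩ := hι _ (projL_mem_orth v hv D)
  refine ⟨ι, a, b, c, d, ha, hb, hc, hd, ?_⟩
  have h1 : (fun y => y - inner ℝ y v • v) '' convexHull ℝ {A, B, C, D}
      = ι '' convexHull ℝ {a, b, c, d} := by
    have e1 : (fun y => y - inner ℝ y v • v) '' convexHull ℝ {A, B, C, D}
        = convexHull ℝ ((projL v) '' {A, B, C, D}) := (projL v).image_convexHull _
    have e2 : ι '' convexHull ℝ {a, b, c, d} = convexHull ℝ (ι '' {a, b, c, d}) :=
      ι.toLinearMap.image_convexHull _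
    rw [e1, e2]
    simp only [Set.image_insert_eq, Set.image_singleton, ha, hb, hc, hd]
  rw [h1, ι.isometry.euclideanHausdorffMeasure_image,
    EuclideanSpace.euclideanHausdorffMeasure_eq_volume]

lemma sqrt_eight : Real.sqrt 8 = 2 * Real.sqrt 2 := by
  rw [show (8:ℝ) = 2 ^ 2 * 2 by norm_num, Real.sqrt_mul (by norm_num),
    Real.sqrt_sq (by norm_num)]

lemma gram_pull (v : E3) (hv : ‖v‖ = 1) (ι : E2 →ₗᵢ[ℝ] E3) {p q r t : E2} {P Q R T : E3}
    (hp : ι p = projL v P) (hq : ι q = projL v Q) (hr : ι r = projL v R) (ht : ι t = projL v T) :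
    gram (q - p) (t - r) = det3 (Q - P) (T - R) v ^ 2 := by
  rw [← gram_projL v hv, map_sub, map_sub, ← hp, ← hq, ← hr, ← ht, ← map_sub, ← map_sub]
  unfold gram
  simp only [LinearIsometry.inner_map_map]

lemma bound_tri (v : E3) (hv : ‖v‖ = 1) (ι : E2 →ₗᵢ[ℝ] E3) {S : Set E2} (hS : Convex ℝ S)
    {p q r : E2} {P Q R : E3} (hp : ι p = projL v P) (hq : ι q = projL v Q)
    (hr : ι r = projL v R) (hpS : p ∈ S) (hqS : q ∈ S) (hrS : r ∈ S)
    (h8 : 8 ≤ det3 (Q - P) (R - P) v ^ 2) :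
    ENNReal.ofReal (Real.sqrt 2) ≤ volume S := by
  refine le_trans (ENNReal.ofReal_le_ofReal ?_) (tri_le hS hpS hqS hrS)
  rw [← sqrt_gram_E2, gram_pull v hv ι hp hq hp hr]
  have h := Real.sqrt_le_sqrt h8
  rw [sqrt_eight] at h
  linarith

lemma bound_quad (v : E3) (hv : ‖v‖ = 1) (ι : E2 →ₗᵢ[ℝ] E3) {S : Set E2} (hS : Convex ℝ S)
    {p q r t : E2} {P Q R T : E3} (hp : ι p = projL v P) (hq : ι q = projL v Q)
    (hr : ι r = projL v R) (ht : ι t = projL v T)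
    (hpS : p ∈ S) (hqS : q ∈ S) (hrS : r ∈ S) (htS : t ∈ S)
    (h8 : 8 ≤ det3 (Q - P) (T - R) v ^ 2) :
    ENNReal.ofReal (Real.sqrt 2) ≤ volume S := by
  refine le_trans (ENNReal.ofReal_le_ofReal ?_) (quad_le hS hpS hqS hrS htS)
  rw [← sqrt_gram_E2, gram_pull v hv ι hp hq hr ht]
  have h := Real.sqrt_le_sqrt h8
  rw [sqrt_eight] at h
  linarith

lemma key_abc_aux (s a b c : ℝ) (hs : s ^ 2 = 2) (hs0 : 0 < s) (ha : 0 ≤ a) (hb : 0 ≤ b)
    (hc : 0 ≤ c) (h : a ^ 2 + b ^ 2 + c ^ 2 = 1) (hba : b ≤ a) (hab : a + b < 1)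
    (h2 : 2 * c ^ 2 < 1) : 2 ≤ (s * a + c) ^ 2 := by
  rcases lt_or_ge a (1 / 2) with ha2 | ha2
  · exfalso
    have e1 : a ^ 2 < 1 / 4 := by
      have := mul_self_lt_mul_self ha ha2
      nlinarith
    have e2 : b ^ 2 ≤ a ^ 2 := by
      have := mul_self_le_mul_self hb hba
      nlinarith
    linarith
  · have e1 : b ^ 2 ≤ (1 - a) ^ 2 := by
      have := mul_self_le_mul_self hb (by linarith : b ≤ 1 - a)
      nlinarith
    have e2 : (1 - a) * (2 - 4 * a) ≤ 0 :=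
      mul_nonpos_of_nonneg_of_nonpos (by linarith) (by linarith)
    have hc2 : 2 * (1 - a) ^ 2 ≤ c ^ 2 := by nlinarith
    have hc3 : s * (1 - a) ≤ c := by
      by_contra hlt
      rw [not_le] at hlt
      have e3 := mul_self_lt_mul_self hc hlt
      have e4 : s * (1 - a) * (s * (1 - a)) = 2 * (1 - a) ^ 2 := by
        have : s * (1 - a) * (s * (1 - a)) = s ^ 2 * (1 - a) ^ 2 := by ring
        rw [this, hs]
      nlinarith
    have e5 : s ≤ s * a + c := by linarith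
    have e6 := pow_le_pow_left₀ hs0.le e5 2
    rw [hs] at e6
    exact e6

lemma key_abc (s a b c : ℝ) (hs : s ^ 2 = 2) (hs0 : 0 < s) (ha : 0 ≤ a) (hb : 0 ≤ b)
    (hc : 0 ≤ c) (h : a ^ 2 + b ^ 2 + c ^ 2 = 1) :
    1 ≤ (a + b) ^ 2 ∨ 1 ≤ 2 * c ^ 2 ∨ 2 ≤ (s * a + c) ^ 2 ∨ 2 ≤ (s * b + c) ^ 2 := by
  rcases le_or_gt 1 ((a + b) ^ 2) with h1 | h1
  · exact Or.inl h1
  rcases le_or_gt 1 (2 * c ^ 2) with h2 | h2
  · exact Or.inr (Or.inl h2)
  have hab : a + b < 1 := by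
    have : (a + b) ^ 2 < 1 ^ 2 := by simpa using h1
    exact lt_of_pow_lt_pow_left₀ 2 (by norm_num) this
  rcases le_total b a with hba | hba
  · exact Or.inr (Or.inr (Or.inl (key_abc_aux s a b c hs hs0 ha hb hc h hba hab h2)))
  · exact Or.inr (Or.inr (Or.inr (key_abc_aux s b a c hs hs0 hb ha hc (by linarith) hba
      (by linarith) h2)))

lemma key_xyz (s x y z : ℝ) (hs : s ^ 2 = 2) (hs0 : 0 < s) (h : x * x + y * y + z * z = 1) :
    2 ≤ (s * y - z) ^ 2 ∨ 2 ≤ (s * y + z) ^ 2 ∨ 2 ≤ (s * x + z) ^ 2 ∨ 2 ≤ (s * x - z) ^ 2 ∨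
      1 ≤ 2 * z ^ 2 ∨ 1 ≤ (x + y) ^ 2 ∨ 1 ≤ (x - y) ^ 2 := by
  have key := key_abc s |x| |y| |z| hs hs0 (abs_nonneg _) (abs_nonneg _) (abs_nonneg _)
    (by simp only [sq_abs]; linarith)
  rcases abs_cases x with ⟨ex, _⟩ | ⟨ex, _⟩ <;> rcases abs_cases y with ⟨ey, _⟩ | ⟨ey, _⟩ <;>
    rcases abs_cases z with ⟨ez, _⟩ | ⟨ez, _⟩ <;> rw [ex, ey, ez] at key <;>
    rcases key with h1 | h1 | h1 | h1 <;>
    first
      | exact Or.inl (by linarith)
      | exact Or.inr (Or.inl (by linarith))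
      | exact Or.inr (Or.inr (Or.inl (by linarith)))
      | exact Or.inr (Or.inr (Or.inr (Or.inl (by linarith))))
      | exact Or.inr (Or.inr (Or.inr (Or.inr (Or.inl (by linarith)))))
      | exact Or.inr (Or.inr (Or.inr (Or.inr (Or.inr (Or.inl (by linarith))))))
      | exact Or.inr (Or.inr (Or.inr (Or.inr (Or.inr (Or.inr (by linarith))))))

/-- **Every orthogonal projection of the regular tetrahedron has area at least `√2`.** -/
theorem proj_area_ge (v : E3) (hv : ‖v‖ = 1) :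
    ENNReal.ofReal (Real.sqrt 2) ≤ μHE[2] ((fun y => y - inner ℝ y v • v) ''
      convexHull ℝ {!₂[1, 0, 0], !₂[-1, 0, 0], !₂[0, 1, Real.sqrt 2], !₂[0, -1, Real.sqrt 2]}) := by
  obtain ⟨ι, a, b, c, d, ha, hb, hc, hd, hμ⟩ := proj_hull_pullback v hv
    !₂[1, 0, 0] !₂[-1, 0, 0] !₂[0, 1, Real.sqrt 2] !₂[0, -1, Real.sqrt 2]
  rw [hμ]
  have hS : Convex ℝ (convexHull ℝ {a, b, c, d}) := convex_convexHull ℝ _
  have haS : a ∈ convexHull ℝ {a, b, c, d} := subset_convexHull ℝ _ (by simp)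
  have hbS : b ∈ convexHull ℝ {a, b, c, d} := subset_convexHull ℝ _ (by simp)
  have hcS : c ∈ convexHull ℝ {a, b, c, d} := subset_convexHull ℝ _ (by simp)
  have hdS : d ∈ convexHull ℝ {a, b, c, d} := subset_convexHull ℝ _ (by simp)
  have hs : Real.sqrt 2 ^ 2 = 2 := Real.sq_sqrt (by norm_num)
  have hs0 : 0 < Real.sqrt 2 := by positivity
  rcases key_xyz (Real.sqrt 2) (v 0) (v 1) (v 2) hs hs0 (norm_sq_E3 v hv)
    with h | h | h | h | h | h | h
  · -- face ABC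
    refine bound_tri v hv ι hS ha hb hc haS hbS hcS ?_
    simp [det3]
    nlinarith
  · -- face ABD
    refine bound_tri v hv ι hS ha hb hd haS hbS hdS ?_
    simp [det3]
    nlinarith
  · -- face ACD
    refine bound_tri v hv ι hS ha hc hd haS hcS hdS ?_
    simp [det3]
    nlinarith
  · -- face BCD
    refine bound_tri v hv ι hS hb hc hd hbS hcS hdS ?_
    simp [det3]
    nlinarith
  · -- opposite edges AB, CD
    refine bound_quad v hv ι hS ha hb hc hd haS hbS hcS hdS ?_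
    simp [det3]
    nlinarith
  · -- opposite edges AC, BD
    refine bound_quad v hv ι hS ha hc hb hd haS hcS hbS hdS ?_
    simp [det3]
    nlinarith
  · -- opposite edges AD, BC
    refine bound_quad v hv ι hS ha hd hb hc haS hdS hbS hcS ?_
    simp [det3]
    nlinarith

/-- **Projecting along the edge direction `e_x` gives area exactly `√2`.** -/
theorem proj_area_eq :
    ∃ v : E3, ‖v‖ = 1 ∧ μHE[2] ((fun y => y - inner ℝ y v • v) ''
      convexHull ℝ {!₂[1, 0, 0], !₂[-1, 0, 0], !₂[0, 1, Real.sqrt 2], !₂[0, -1, Real.sqrt 2]})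
        = ENNReal.ofReal (Real.sqrt 2) := by
  have hs : Real.sqrt 2 * Real.sqrt 2 = 2 := Real.mul_self_sqrt (by norm_num)
  refine ⟨!₂[1, 0, 0], ?_, ?_⟩
  · simp [EuclideanSpace.norm_eq, Fin.sum_univ_three]
  · have e1 : (fun y : E3 => y - inner ℝ y (!₂[1, 0, 0] : E3) • (!₂[1, 0, 0] : E3)) ''
          convexHull ℝ {!₂[1, 0, 0], !₂[-1, 0, 0], !₂[0, 1, Real.sqrt 2], !₂[0, -1, Real.sqrt 2]}
        = convexHull ℝ ((projL !₂[1, 0, 0]) ''
          {!₂[1, 0, 0], !₂[-1, 0, 0], !₂[0, 1, Real.sqrt 2], !₂[0, -1, Real.sqrt 2]}) :=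
      (projL !₂[1, 0, 0]).image_convexHull _
    have hA : projL !₂[1, 0, 0] (!₂[1, 0, 0] : E3) = 0 := by
      rw [projL_apply, inner_E3]
      ext i
      fin_cases i <;> simp
    have hB : projL !₂[1, 0, 0] (!₂[-1, 0, 0] : E3) = 0 := by
      rw [projL_apply, inner_E3]
      ext i
      fin_cases i <;> simp
    have hC : projL !₂[1, 0, 0] (!₂[0, 1, Real.sqrt 2] : E3) = !₂[0, 1, Real.sqrt 2] := by
      rw [projL_apply, inner_E3]
      ext i
      fin_cases i <;> simp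
    have hD : projL !₂[1, 0, 0] (!₂[0, -1, Real.sqrt 2] : E3) = !₂[0, -1, Real.sqrt 2] := by
      rw [projL_apply, inner_E3]
      ext i
      fin_cases i <;> simp
    rw [e1]
    simp only [Set.image_insert_eq, Set.image_singleton, hA, hB, hC, hD]
    rw [Set.insert_eq_of_mem (Set.mem_insert _ _), area_triangle]
    congr 1
    have hg : gram ((!₂[0, 1, Real.sqrt 2] : E3) - 0) ((!₂[0, -1, Real.sqrt 2] : E3) - 0) = 8 := by
      unfold gram
      simp only [sub_zero, inner_E3]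
      simp
      nlinarith
    rw [hg, sqrt_eight]
    ring

/-- The first conjunct of S0325, verbatim. -/
theorem part1 :
    (∀ v : EuclideanSpace ℝ (Fin 3), ‖v‖ = 1 →
        ENNReal.ofReal (Real.sqrt 2) ≤ μHE[2] ((fun y => y - inner ℝ y v • v) '' convexHull ℝ {!₂[1, 0, 0], !₂[-1, 0, 0], !₂[0, 1, Real.sqrt 2], !₂[0, -1, Real.sqrt 2]})) ∧
      ∃ v : EuclideanSpace ℝ (Fin 3), ‖v‖ = 1 ∧
        μHE[2] ((fun y => y - inner ℝ y v • v) '' convexHull ℝ {!₂[1, 0, 0], !₂[-1, 0, 0], !₂[0, 1, Real.sqrt 2], !₂[0, -1, Real.sqrt 2]}) = ENNReal.ofReal (Real.sqrt 2) :=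
  ⟨proj_area_ge, proj_area_eq⟩

end Crest.Agent.S0325
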