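import Crest.Agent.S0325.Tri

/-!
# Planar lower bounds for the area of a convex set containing three / four given points
(helper1, ROW211 WP-A)
-/

namespace Crest.Agent.S0325

open MeasureTheory

/-- `2 × 2` determinant of two vectors of the plane. -/
def det2 (u x : E2) : ℝ := u 0 * x 1 - u 1 * x 0

lemma inner_E2 (x y : E2) : inner ℝ x y = x 0 * y 0 + x 1 * y 1 := by
  simp [PiLp.inner_apply, Fin.sum_univ_two]
  ring

lemma gram_eq_det2_sq (u x : E2) : gram u x = det2 u x ^ 2 := by
  unfold gram det2
  rw [inner_E2, inner_E2, inner_E2]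
  ring

lemma sqrt_gram_E2 (u x : E2) : Real.sqrt (gram u x) = |det2 u x| := by
  rw [gram_eq_det2_sq, Real.sqrt_sq_eq_abs]

/-- Area of a triangle in the plane. -/
lemma volume_triangle (p q r : E2) :
    volume (convexHull ℝ {p, q, r}) = ENNReal.ofReal (|det2 (q - p) (r - p)| / 2) := by
  have h := area_triangle p q r
  rw [EuclideanSpace.euclideanHausdorffMeasure_eq_volume 2, sqrt_gram_E2] at h
  exact h

lemma det2_sub_right (u x y : E2) : det2 u (x - y) = det2 u x - det2 u y := by
  simp only [det2, PiLp.sub_apply]
  ring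

lemma det2_self (u : E2) : det2 u u = 0 := by
  simp only [det2]
  ring

/-- The linear functional `x ↦ det2 u x`. -/
def det2L (u : E2) : E2 →ₗ[ℝ] ℝ where
  toFun x := det2 u x
  map_add' x y := by
    simp only [det2, PiLp.add_apply]
    ring
  map_smul' c x := by
    simp only [det2, PiLp.smul_apply, smul_eq_mul, RingHom.id_apply]
    ring

lemma det2L_apply (u x : E2) : det2L u x = det2 u x := rfl

/-- A line `{x | det2 u (x - a) = 0}` with `u`-functional not identically zero is Lebesgue-null. -/
lemma volume_line_eq_zero (u a w : E2) (hw : det2 u w ≠ 0) :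
    volume {x : E2 | det2 u (x - a) = 0} = 0 := by
  have hne : LinearMap.ker (det2L u) ≠ ⊤ := by
    intro htop
    have : w ∈ LinearMap.ker (det2L u) := by rw [htop]; trivial
    rw [LinearMap.mem_ker, det2L_apply] at this
    exact hw this
  have h0 := Measure.addHaar_submodule (volume : Measure E2) (LinearMap.ker (det2L u)) hne
  have h1 := measure_preimage_add_right (volume : Measure E2) (-a)
    (LinearMap.ker (det2L u) : Set E2)
  have h2 : {x : E2 | det2 u (x - a) = 0}
      = (fun h => h + -a) ⁻¹' (LinearMap.ker (det2L u) : Set E2) := by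
    ext x
    simp only [Set.mem_ofPred_eq, Set.mem_preimage, SetLike.mem_coe, LinearMap.mem_ker,
      det2L_apply, sub_eq_add_neg]
  rw [h2, h1, h0]

lemma convex_halfplane (u a : E2) (k : ℝ) : Convex ℝ {x : E2 | 0 ≤ k * det2 u (x - a)} := by
  intro x hx y hy s t hs ht hst
  simp only [Set.mem_ofPred_eq] at hx hy ⊢
  have h : k * det2 u (s • x + t • y - a)
      = s * (k * det2 u (x - a)) + t * (k * det2 u (y - a)) := by
    have ht' : t = 1 - s := by linarith
    subst ht'
    simp only [det2, PiLp.sub_apply, PiLp.add_apply, PiLp.smul_apply, smul_eq_mul]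
    ring
  rw [h]
  exact add_nonneg (mul_nonneg hs hx) (mul_nonneg ht hy)

/-- A convex set containing `p, q, r` has area at least that of the triangle. -/
lemma tri_le {S : Set E2} (hS : Convex ℝ S) {p q r : E2} (hp : p ∈ S) (hq : q ∈ S) (hr : r ∈ S) :
    ENNReal.ofReal (|det2 (q - p) (r - p)| / 2) ≤ volume S := by
  rw [← volume_triangle]
  apply measure_mono
  apply convexHull_min _ hS
  intro z hz
  simp only [Set.mem_insert_iff, Set.mem_singleton_iff] at hz
  rcases hz with rfl | rfl | rfl <;> assumption

/-- A convex set containing `a, b, c, d` has area at least `|det (b - a, d - c)| / 2`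
(the area of the quadrilateral with diagonals `ab`, `cd` when it is convex). -/
lemma quad_le {S : Set E2} (hS : Convex ℝ S) {a b c d : E2}
    (ha : a ∈ S) (hb : b ∈ S) (hc : c ∈ S) (hd : d ∈ S) :
    ENNReal.ofReal (|det2 (b - a) (d - c)| / 2) ≤ volume S := by
  set σc := det2 (b - a) (c - a) with hσc
  set σd := det2 (b - a) (d - a) with hσd
  have hdiff : det2 (b - a) (d - c) = σd - σc := by
    rw [hσc, hσd, det2_sub_right, det2_sub_right, det2_sub_right]
    ring
  have h1 : ENNReal.ofReal (|σc| / 2) ≤ volume S := tri_le hS ha hb hc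
  have h2 : ENNReal.ofReal (|σd| / 2) ≤ volume S := tri_le hS ha hb hd
  rw [hdiff]
  by_cases hsign : 0 ≤ σc * σd
  · -- same side: the larger triangle suffices
    rcases le_total |σc| |σd| with hle | hle
    · refine le_trans (ENNReal.ofReal_le_ofReal ?_) h2
      have : |σd - σc| ≤ |σd| := by
        rcases abs_cases σc with ⟨e1, _⟩ | ⟨e1, _⟩ <;> rcases abs_cases σd with ⟨e2, _⟩ | ⟨e2, _⟩ <;>
          rw [abs_le] <;> constructor <;> nlinarith
      linarith
    · refine le_trans (ENNReal.ofReal_le_ofReal ?_) h1
      have : |σd - σc| ≤ |σc| := by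
        rcases abs_cases σc with ⟨e1, _⟩ | ⟨e1, _⟩ <;> rcases abs_cases σd with ⟨e2, _⟩ | ⟨e2, _⟩ <;>
          rw [abs_le] <;> constructor <;> nlinarith
      linarith
  · -- opposite sides: the two triangles overlap in a null set
    rw [not_le] at hsign
    have hσc0 : σc ≠ 0 := by rintro h; rw [h] at hsign; simp at hsign
    have hT1 : convexHull ℝ {a, b, c} ⊆ S := by
      apply convexHull_min _ hS
      intro z hz
      simp only [Set.mem_insert_iff, Set.mem_singleton_iff] at hz
      rcases hz with rfl | rfl | rfl <;> assumption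
    have hT2 : convexHull ℝ {a, b, d} ⊆ S := by
      apply convexHull_min _ hS
      intro z hz
      simp only [Set.mem_insert_iff, Set.mem_singleton_iff] at hz
      rcases hz with rfl | rfl | rfl <;> assumption
    have hH1 : convexHull ℝ {a, b, c} ⊆ {x : E2 | 0 ≤ σc * det2 (b - a) (x - a)} := by
      apply convexHull_min _ (convex_halfplane _ _ _)
      intro z hz
      simp only [Set.mem_insert_iff, Set.mem_singleton_iff] at hz
      rcases hz with rfl | rfl | rfl
      · simp [det2]
      · simp [det2_self]
      · simp only [Set.mem_ofPred_eq]; rw [← hσc]; nlinarith [sq_nonneg σc]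
    have hH2 : convexHull ℝ {a, b, d} ⊆ {x : E2 | 0 ≤ σd * det2 (b - a) (x - a)} := by
      apply convexHull_min _ (convex_halfplane _ _ _)
      intro z hz
      simp only [Set.mem_insert_iff, Set.mem_singleton_iff] at hz
      rcases hz with rfl | rfl | rfl
      · simp [det2]
      · simp [det2_self]
      · simp only [Set.mem_ofPred_eq]; rw [← hσd]; nlinarith [sq_nonneg σd]
    have hinter : convexHull ℝ {a, b, c} ∩ convexHull ℝ {a, b, d}
        ⊆ {x : E2 | det2 (b - a) (x - a) = 0} := by
      rintro x ⟨hx1, hx2⟩
      have e1 := hH1 hx1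
      have e2 := hH2 hx2
      simp only [Set.mem_ofPred_eq] at e1 e2 ⊢
      by_contra hne
      have hpos : 0 < det2 (b - a) (x - a) ^ 2 := by positivity
      nlinarith [mul_nonneg e1 e2]
    have hnull : volume (convexHull ℝ {a, b, c} ∩ convexHull ℝ {a, b, d}) = 0 :=
      measure_mono_null hinter (volume_line_eq_zero (b - a) a (c - a) hσc0)
    have hmeas : MeasurableSet (convexHull ℝ {a, b, d}) := by
      apply IsClosed.measurableSet
      apply IsCompact.isClosed
      exact Set.Finite.isCompact_convexHull ℝ (by simp)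
    have hunion := measure_union_add_inter (μ := (volume : Measure E2))
      (convexHull ℝ {a, b, c}) hmeas
    rw [hnull, add_zero, volume_triangle, volume_triangle, ← hσc, ← hσd] at hunion
    have hle : volume (convexHull ℝ {a, b, c} ∪ convexHull ℝ {a, b, d}) ≤ volume S :=
      measure_mono (Set.union_subset hT1 hT2)
    rw [hunion, ← ENNReal.ofReal_add (by positivity) (by positivity)] at hle
    refine le_trans (ENNReal.ofReal_le_ofReal ?_) hle
    have : |σd - σc| ≤ |σc| + |σd| := by
      rw [sub_eq_add_neg, add_comm |σc|]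
      exact (abs_add_le _ _).trans (by rw [abs_neg])
    linarith

end Crest.Agent.S0325
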