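import Mathlib

/-!
# Areas of triangles for the Lebesgue-normalised Hausdorff measure `μHE[2]`

Small toolkit (helper1, ROW211 WP-A), built on Mathlib's `LinearMap.normDet`.
-/

namespace Crest.Agent.S0325

open MeasureTheory

/-- The plane `ℝ²` with its Euclidean structure. -/
abbrev E2 : Type := EuclideanSpace ℝ (Fin 2)

section general

variable {V : Type*} [NormedAddCommGroup V] [InnerProductSpace ℝ V]

/-- Gram determinant of two vectors: `‖a‖²‖b‖² − ⟪a,b⟫²`. -/
noncomputable def gram (a b : V) : ℝ :=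
  inner ℝ a a * inner ℝ b b - inner ℝ a b ^ 2

lemma gram_nonneg (a b : V) : 0 ≤ gram a b := by
  unfold gram
  have h := real_inner_mul_inner_self_le a b
  nlinarith [h]

/-- The linear map `(s, t) ↦ s • a + t • b`. -/
noncomputable def lin2 (a b : V) : E2 →ₗ[ℝ] V where
  toFun x := x 0 • a + x 1 • b
  map_add' x y := by
    simp only [PiLp.add_apply, add_smul]
    abel
  map_smul' c x := by
    simp only [PiLp.smul_apply, smul_eq_mul, RingHom.id_apply, smul_add, smul_smul]

@[simp] lemma lin2_apply (a b : V) (x : E2) : lin2 a b x = x 0 • a + x 1 • b := rfl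

lemma normDet_lin2 (a b : V) : (lin2 a b).normDet = Real.sqrt (gram a b) := by
  have h := LinearMap.normDet_sq_eq_det_gram (lin2 a b) (EuclideanSpace.basisFun (Fin 2) ℝ)
  have h2 : (lin2 a b).normDet ^ 2 = gram a b := by
    simp only [Matrix.det_fin_two, Matrix.gram_apply, lin2_apply, EuclideanSpace.basisFun_apply] at h
    simp at h
    rw [h, gram, real_inner_comm a b, real_inner_self_eq_norm_sq, real_inner_self_eq_norm_sq]
    ring
  rw [← h2, Real.sqrt_sq (LinearMap.normDet_nonneg _)]

end general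

/-- The standard triangle in the plane. -/
def stdTri : Set E2 := {x | 0 ≤ x 0 ∧ 0 ≤ x 1 ∧ x 0 + x 1 ≤ 1}

lemma volume_triR2 :
    (volume : Measure (ℝ × ℝ)) {p : ℝ × ℝ | 0 ≤ p.1 ∧ 0 ≤ p.2 ∧ p.1 + p.2 ≤ 1}
      = ENNReal.ofReal (1 / 2) := by
  have hS : MeasurableSet {p : ℝ × ℝ | 0 ≤ p.1 ∧ 0 ≤ p.2 ∧ p.1 + p.2 ≤ 1} := by
    apply IsClosed.measurableSet
    have h1 : IsClosed {p : ℝ × ℝ | 0 ≤ p.1} := isClosed_le continuous_const continuous_fst
    have h2 : IsClosed {p : ℝ × ℝ | 0 ≤ p.2} := isClosed_le continuous_const continuous_snd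
    have h3 : IsClosed {p : ℝ × ℝ | p.1 + p.2 ≤ 1} :=
      isClosed_le (continuous_fst.add continuous_snd) continuous_const
    exact h1.inter (h2.inter h3)
  rw [Measure.volume_eq_prod, Measure.prod_apply hS]
  have key : ∀ x : ℝ, volume (Prod.mk x ⁻¹' {p : ℝ × ℝ | 0 ≤ p.1 ∧ 0 ≤ p.2 ∧ p.1 + p.2 ≤ 1})
      = (Set.Icc (0:ℝ) 1).indicator (fun x => ENNReal.ofReal (1 - x)) x := by
    intro x
    by_cases hx : x ∈ Set.Icc (0:ℝ) 1
    · have : Prod.mk x ⁻¹' {p : ℝ × ℝ | 0 ≤ p.1 ∧ 0 ≤ p.2 ∧ p.1 + p.2 ≤ 1}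
          = Set.Icc 0 (1 - x) := by
        ext y
        simp only [Set.mem_preimage, Set.mem_ofPred_eq, Set.mem_Icc]
        constructor
        · intro h; exact ⟨h.2.1, by linarith [h.2.2]⟩
        · intro h; exact ⟨hx.1, h.1, by linarith [h.2]⟩
      rw [this, Set.indicator_of_mem hx, Real.volume_Icc]
      simp
    · have : Prod.mk x ⁻¹' {p : ℝ × ℝ | 0 ≤ p.1 ∧ 0 ≤ p.2 ∧ p.1 + p.2 ≤ 1} = ∅ := by
        ext y
        simp only [Set.mem_preimage, Set.mem_ofPred_eq, Set.mem_empty_iff_false, iff_false]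
        intro h
        exact hx ⟨h.1, by linarith [h.2.1, h.2.2]⟩
      rw [this, Set.indicator_of_notMem hx]
      simp
  simp_rw [key]
  rw [lintegral_indicator measurableSet_Icc]
  rw [← ofReal_integral_eq_lintegral_ofReal]
  · congr 1
    rw [integral_Icc_eq_integral_Ioc, ← intervalIntegral.integral_of_le (by norm_num)]
    have h1 : IntervalIntegrable (fun _ : ℝ => (1:ℝ)) volume 0 1 :=
      continuous_const.intervalIntegrable _ _
    have h2 : IntervalIntegrable (fun x : ℝ => x) volume 0 1 :=
      continuous_id.intervalIntegrable _ _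
    rw [intervalIntegral.integral_sub h1 h2]
    simp only [intervalIntegral.integral_const, integral_id]
    norm_num
  · exact (continuous_const.sub continuous_id).continuousOn.integrableOn_Icc
  · filter_upwards [ae_restrict_mem measurableSet_Icc] with x hx
    simp only [Pi.zero_apply]
    linarith [hx.2]

/-- The coordinate map `E2 → ℝ × ℝ`. -/
noncomputable def coord2 : E2 → ℝ × ℝ := fun x => (x 0, x 1)

lemma measurePreserving_coord2 : MeasurePreserving coord2 volume volume := by
  have h1 : MeasurePreserving (@WithLp.ofLp 2 (Fin 2 → ℝ)) volume volume :=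
    PiLp.volume_preserving_ofLp (Fin 2)
  have h2 := (volume_preserving_finTwoArrow ℝ)
  exact h2.comp h1

lemma volume_stdTri : volume stdTri = ENNReal.ofReal (1 / 2) := by
  have h : stdTri = coord2 ⁻¹' {p : ℝ × ℝ | 0 ≤ p.1 ∧ 0 ≤ p.2 ∧ p.1 + p.2 ≤ 1} := by
    ext x; simp [stdTri, coord2]
  rw [h, measurePreserving_coord2.measure_preimage, volume_triR2]
  apply MeasurableSet.nullMeasurableSet
  apply IsClosed.measurableSet
  have h1 : IsClosed {p : ℝ × ℝ | 0 ≤ p.1} := isClosed_le continuous_const continuous_fst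
  have h2 : IsClosed {p : ℝ × ℝ | 0 ≤ p.2} := isClosed_le continuous_const continuous_snd
  have h3 : IsClosed {p : ℝ × ℝ | p.1 + p.2 ≤ 1} :=
    isClosed_le (continuous_fst.add continuous_snd) continuous_const
  exact h1.inter (h2.inter h3)

lemma convex_stdTri : Convex ℝ stdTri := by
  intro x hx y hy s t hs ht hst
  simp only [stdTri, Set.mem_ofPred_eq, PiLp.add_apply, PiLp.smul_apply, smul_eq_mul] at *
  refine ⟨add_nonneg (mul_nonneg hs hx.1) (mul_nonneg ht hy.1),
    add_nonneg (mul_nonneg hs hx.2.1) (mul_nonneg ht hy.2.1), ?_⟩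
  nlinarith [mul_le_mul_of_nonneg_left hx.2.2 hs, mul_le_mul_of_nonneg_left hy.2.2 ht]

section general2

variable {V : Type*} [NormedAddCommGroup V] [InnerProductSpace ℝ V]

/-- The affine map `x ↦ p + x 0 • a + x 1 • b`. -/
noncomputable def aff2 (p a b : V) : E2 →ᵃ[ℝ] V :=
  AffineMap.mk' (fun x => p + lin2 a b x) (lin2 a b) 0 (by
    intro x
    simp only [vsub_eq_sub, sub_zero, map_zero, add_zero, vadd_eq_add]
    abel)

lemma aff2_apply (p a b : V) (x : E2) : aff2 p a b x = p + (x 0 • a + x 1 • b) := rfl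

lemma convexHull_triple (p q r : V) :
    convexHull ℝ {p, q, r} = aff2 p (q - p) (r - p) '' stdTri := by
  apply Set.Subset.antisymm
  · apply convexHull_min
    · intro z hz
      simp only [Set.mem_insert_iff, Set.mem_singleton_iff] at hz
      rcases hz with rfl | rfl | rfl
      · exact ⟨0, by simp [stdTri], by simp [aff2_apply]⟩
      · exact ⟨EuclideanSpace.single 0 1, by simp [stdTri], by simp [aff2_apply]⟩
      · exact ⟨EuclideanSpace.single 1 1, by simp [stdTri], by simp [aff2_apply]⟩
    · exact convex_stdTri.affine_image _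
  · rintro _ ⟨x, hx, rfl⟩
    have : aff2 p (q - p) (r - p) x
        = ∑ i : Fin 3, (![1 - x 0 - x 1, x 0, x 1] i) • (![p, q, r] i) := by
      simp [aff2_apply, Fin.sum_univ_three, sub_smul, smul_sub]
      abel
    rw [this]
    apply (convex_convexHull ℝ _).sum_mem
    · intro i _
      have h1 := hx.1
      have h2 := hx.2.1
      have h3 := hx.2.2
      fin_cases i
      · simp only [Fin.zero_eta, Matrix.cons_val_zero]; linarith
      · simpa using h1
      · simpa using h2
    · simp only [Fin.sum_univ_three, Matrix.cons_val_zero, Matrix.cons_val_one, Matrix.cons_val_two,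
        Matrix.tail_cons, Matrix.head_cons]
      ring
    · intro i _
      apply subset_convexHull
      fin_cases i <;> simp

/-- **Area of a triangle** (any three points, degenerate or not). -/
theorem area_triangle [MeasurableSpace V] [BorelSpace V] (p q r : V) :
    μHE[2] (convexHull ℝ {p, q, r})
      = ENNReal.ofReal (Real.sqrt (gram (q - p) (r - p)) / 2) := by
  rw [convexHull_triple]
  have h1 : (aff2 p (q - p) (r - p) : E2 → V) '' stdTri
      = (fun z => p + z) '' (lin2 (q - p) (r - p) '' stdTri) := by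
    rw [Set.image_image]; rfl
  rw [h1, (isometry_add_left p).euclideanHausdorffMeasure_image]
  have h := LinearMap.euclideanHausdorffMeasure_image_eq_normDet_mul_volume
    (lin2 (q - p) (r - p)) stdTri
  rw [finrank_euclideanSpace_fin] at h
  rw [h, normDet_lin2, volume_stdTri, ← ENNReal.ofReal_mul (Real.sqrt_nonneg _)]
  congr 1
  ring

end general2

end Crest.Agent.S0325
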